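import Vale.Agent.P296.Ample
import Vale.Agent.P296.Main
import Vale.Agent.P296.Herm

/-!
A counterexample to Griffiths' positivity conjecture on `ℙ¹ × ℙ¹`, with the existence of smooth
Hermitian metrics recorded explicitly.
-/

open Vale.Agent.P296

theorem Vale.Agent.Results.P296.NotGriffithsB.result :
    ∃ E : Bundle 2, E.Ample ∧ Nonempty (Metric E) ∧
      ∀ H : Metric E, ¬ H.GriffithsPos ∧ ¬ H.GriffithsSemipos := by
  obtain ⟨m, hm, h⟩ := no_semipos
  refine ⟨EE m, EE_ample m hm, ⟨metricEE m⟩, fun H => ⟨fun hH => h H fun α p ξ v => ?_, h H⟩⟩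
  by_cases hv : v = 0
  · simp [Metric.griffithsForm, hv]
  by_cases hξ : ξ = 0
  · have : curv (H.h α) p ξ = 0 := by
      ext i j
      simp [curv, dzbar, hξ]
    simp [Metric.griffithsForm, this]
  exact (hH α p ξ v hξ hv).le
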